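import Vale.Agent.P235.Basic

namespace Vale.Agent.P235

theorem St.add_vertex {S : St} {w : ℕ} (hS : S.Valid w) {A : Finset ℕ} (hA : S.Pos A)
    (hne : A.Nonempty) (hc : A.card ≤ w) (κ p : ℕ → ℝ)
    (hκ : ∀ s ∈ A, 0 < κ s ∧ ∀ c, |p c - S.pos s c| ≤ κ s) (hp : ∀ c, S.n < c → p c = 0) :
    ∃ S' : St, S'.Valid w ∧ S.Ext S' ∧ S'.n = S.n + 1 ∧ S'.Pos (insert S.n A) ∧
      (∀ s ∈ A, S'.Rel S.n s (κ s)) ∧ S'.pos S.n = p := by
  obtain ⟨t, ht, hA⟩ := hA
  have hlt : ∀ s ∈ A, s < S.n := by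
    intro s hs
    rcases Finset.mem_insert.1 (hA hs) with h | h
    · exact h ▸ ht
    · exact (hS.edge ht h).1.trans ht
  refine ⟨⟨S.n + 1, Function.update S.W S.n A, Function.update S.par S.n t,
    Function.update S.len S.n κ, Function.update S.pos S.n p⟩, ⟨Nat.succ_pos _, ?_, ?_, ?_⟩,
    ⟨Nat.le_succ _, fun v hv => ?_⟩, rfl, ⟨S.n, Nat.lt_succ_self _, ?_⟩, fun s hs => ?_, ?_⟩
  · simp only
    rw [Function.update_of_ne hS.1.ne, hS.2.1]
  · intro v h0 hv
    simp only at hv ⊢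
    rcases (Nat.lt_succ_iff.1 hv).lt_or_eq with h | h
    · obtain ⟨a1, a2, a3, a4, a5⟩ := hS.2.2.1 v h0 h
      simp only [Function.update_of_ne h.ne, Function.update_of_ne (a1.trans h).ne]
      refine ⟨a1, a2, a3, a4, fun b hb => ?_⟩
      obtain ⟨b1, b2, b3⟩ := a5 b hb
      rw [Function.update_of_ne (b1.trans h).ne]
      exact ⟨b1, b2, b3⟩
    · subst h
      simp only [Function.update_self, Function.update_of_ne ht.ne]
      refine ⟨ht, hne, hA, hc, fun b hb => ?_⟩
      rw [Function.update_of_ne (hlt b hb).ne]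
      exact ⟨hlt b hb, hκ b hb⟩
  · intro v hv c hc'
    simp only at hv hc' ⊢
    rcases (Nat.lt_succ_iff.1 hv).lt_or_eq with h | h
    · rw [Function.update_of_ne h.ne]
      exact hS.2.2.2 v h c (by omega)
    · subst h
      rw [Function.update_self]
      exact hp c (by omega)
  · simp only [Function.update_of_ne hv.ne, and_self]
  · simp only [Function.update_self]
    exact Finset.Subset.rfl
  · refine ⟨Nat.lt_succ_self _, (hlt s hs).trans (Nat.lt_succ_self _), Or.inl ?_⟩
    simp only [Function.update_self, and_true]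
    exact hs
  · simp only [Function.update_self]

end Vale.Agent.P235
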