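import Vale.Agent.P235.Defs

namespace Vale.Agent.P235

theorem St.ext_refl (S : St) : S.Ext S := ⟨le_rfl, fun _ _ => ⟨rfl, rfl, rfl⟩⟩

theorem St.Ext.trans {S S' S'' : St} (h : S.Ext S') (h' : S'.Ext S'') : S.Ext S'' := by
  refine ⟨h.1.trans h'.1, fun v hv => ?_⟩
  obtain ⟨a1, a2, a3⟩ := h.2 v hv
  obtain ⟨b1, b2, b3⟩ := h'.2 v (lt_of_lt_of_le hv h.1)
  exact ⟨b1.trans a1, b2.trans a2, b3.trans a3⟩

theorem St.Rel.ext {S S' : St} {x y : ℕ} {r : ℝ} (h : S.Rel x y r) (he : S.Ext S') :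
    S'.Rel x y r := by
  obtain ⟨hx, hy, h⟩ := h
  obtain ⟨a1, a2, -⟩ := he.2 x hx
  obtain ⟨b1, b2, -⟩ := he.2 y hy
  refine ⟨lt_of_lt_of_le hx he.1, lt_of_lt_of_le hy he.1, ?_⟩
  rw [a1, a2, b1, b2]
  exact h

theorem St.Anc.ext {S S' : St} {A : Finset ℕ} {ρ : ℕ → ℝ} {x : ℕ} (h : S.Anc A ρ x)
    (he : S.Ext S') : S'.Anc A ρ x := fun p hp => (h p hp).ext he

theorem St.Pos.ext {S S' : St} {A : Finset ℕ} (h : S.Pos A) (he : S.Ext S') : S'.Pos A := by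
  obtain ⟨t, ht, h⟩ := h
  refine ⟨t, lt_of_lt_of_le ht he.1, ?_⟩
  rw [(he.2 t ht).1]
  exact h

theorem St.Pos.mono {S : St} {A A' : Finset ℕ} (h : S.Pos A) (hA : A' ⊆ A) : S.Pos A' := by
  obtain ⟨t, ht, h⟩ := h
  exact ⟨t, ht, hA.trans h⟩

theorem St.Good.ext {S S' : St} {C : ℝ} {F : ℕ → ℕ → ℝ} (h : S'.Good C F) (he : S.Ext S') :
    S.Good C F := by
  obtain ⟨h1, h2, h3, h4, h5⟩ := h
  refine ⟨h1, h2, h3, fun x hx y hy c => ?_, fun x hx b hb => ?_⟩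
  · have := h4 x (lt_of_lt_of_le hx he.1) y (lt_of_lt_of_le hy he.1) c
    rwa [(he.2 x hx).2.2, (he.2 y hy).2.2] at this
  · have := h5 x (lt_of_lt_of_le hx he.1) b (by rw [(he.2 x hx).1]; exact hb)
    rwa [(he.2 x hx).2.1] at this

theorem St.Rel.symm {S : St} {x y : ℕ} {r : ℝ} (h : S.Rel x y r) : S.Rel y x r :=
  ⟨h.2.1, h.1, h.2.2.symm⟩

theorem St.Valid.edge {S : St} {w x y : ℕ} (hS : S.Valid w) (hx : x < S.n) (h : y ∈ S.W x) :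
    y < x ∧ 0 < S.len x y ∧ ∀ c, |S.pos x c - S.pos y c| ≤ S.len x y := by
  have h0 : 0 < x := by
    rcases Nat.eq_zero_or_pos x with h1 | h1
    · rw [h1, hS.2.1] at h
      simp at h
    · exact h1
  exact (hS.2.2.1 x h0 hx).2.2.2.2 y h

theorem St.Rel.near {S : St} {w x y : ℕ} {r : ℝ} (hS : S.Valid w) (h : S.Rel x y r) (c : ℕ) :
    |S.pos x c - S.pos y c| ≤ r := by
  obtain ⟨hx, hy, ⟨h1, h2⟩ | ⟨h1, h2⟩⟩ := h
  · exact h2 ▸ (hS.edge hx h1).2.2 c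
  · rw [abs_sub_comm]
    exact h2 ▸ (hS.edge hy h1).2.2 c

theorem St.Rel.pos {S : St} {w x y : ℕ} {r : ℝ} (hS : S.Valid w) (h : S.Rel x y r) : 0 < r := by
  obtain ⟨hx, hy, ⟨h1, h2⟩ | ⟨h1, h2⟩⟩ := h
  · exact h2 ▸ (hS.edge hx h1).2.1
  · exact h2 ▸ (hS.edge hy h1).2.1

theorem St.Rel.ne {S : St} {w x y : ℕ} {r : ℝ} (hS : S.Valid w) (h : S.Rel x y r) : x ≠ y := by
  obtain ⟨hx, hy, ⟨h1, -⟩ | ⟨h1, -⟩⟩ := h
  · exact (hS.edge hx h1).1.ne'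
  · exact (hS.edge hy h1).1.ne

theorem St.Rel.cap {S : St} {x y : ℕ} {r C : ℝ} {F : ℕ → ℕ → ℝ} (h : S.Rel x y r)
    (hF : S.Good C F) : F x y ≤ C * r := by
  obtain ⟨hx, hy, ⟨h1, h2⟩ | ⟨h1, h2⟩⟩ := h
  · exact h2 ▸ hF.2.2.2.2 x hx y h1
  · rw [hF.1]
    exact h2 ▸ hF.2.2.2.2 y hy x h1

theorem St.win_false {S : St} {w : ℕ} {C : ℝ} {K : (ℕ → ℕ → ℝ) → Prop} (hS : S.Valid w)
    (h : ∀ F, S.Good C F → ¬ K F) : S.Win w C K := ⟨S, hS, S.ext_refl, h⟩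

theorem St.win_ext {S S' : St} {w : ℕ} {C : ℝ} {K K' : (ℕ → ℕ → ℝ) → Prop} (he : S.Ext S')
    (h : S'.Win w C K') (hK : ∀ F, S'.Good C F → K F → K' F) : S.Win w C K := by
  obtain ⟨T, hT, hE, h⟩ := h
  exact ⟨T, hT, he.trans hE, fun F hF hk => h F hF (hK F (hF.ext hE) hk)⟩

theorem St.win_or {S : St} {w : ℕ} {C : ℝ} {K K1 K2 : (ℕ → ℕ → ℝ) → Prop} (h1 : S.Win w C K1)
    (h2 : ∀ S' : St, S'.Valid w → S.Ext S' → S'.Win w C K2)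
    (hK : ∀ F, S.Good C F → K F → K1 F ∨ K2 F) : S.Win w C K := by
  obtain ⟨T, hT, hE, h⟩ := h1
  obtain ⟨U, hU, hE', h'⟩ := h2 T hT hE
  refine ⟨U, hU, hE.trans hE', fun F hF hk => ?_⟩
  rcases hK F (hF.ext (hE.trans hE')) hk with h3 | h3
  · exact h F (hF.ext hE') h3
  · exact h' F hF h3

theorem St.init (w : ℕ) (hw : 1 ≤ w) : ∃ S : St, S.Valid w ∧ S.Pos {1, 0} ∧ S.Rel 1 0 1 ∧
    ∀ (C : ℝ) (F : ℕ → ℕ → ℝ), S.Good C F → 1 ≤ F 1 0 := by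
  refine ⟨⟨2, fun v => if v = 1 then {0} else ∅, fun _ => 0, fun _ _ => 1,
    fun v c => if v = 1 ∧ c = 0 then 1 else 0⟩, ⟨by norm_num, by simp, ?_, ?_⟩, ⟨1, by norm_num, ?_⟩,
    ⟨by norm_num, by norm_num, Or.inl ⟨by simp, rfl⟩⟩, ?_⟩
  · intro v h0 h2
    have h1 : v = 1 := by
      simp only at h2
      omega
    subst h1
    refine ⟨by norm_num, by simp, by simp, by simpa using hw, ?_⟩
    intro b hb
    have h3 : b = 0 := by simpa using hb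
    subst h3
    refine ⟨by norm_num, by norm_num, fun c => ?_⟩
    by_cases hc : c = 0 <;> simp [hc]
  · intro v _ c hc
    have h1 : c ≠ 0 := by
      simp only at hc
      omega
    simp [h1]
  · simp
  · intro C F hF
    have := hF.2.2.2.1 1 (by norm_num) 0 (by norm_num) 0
    simpa using this

end Vale.Agent.P235
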