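import Vale.Agent.P235.Defs

namespace Vale.Agent.P235

theorem St.conn_mem {S : St} {w : ℕ} (hS : S.Valid w) {x y : ℕ} (hx : x < S.n)
    (h : y ∈ S.W x) : y < x ∧ 0 < S.len x y ∧ ∀ c, |S.pos x c - S.pos y c| ≤ S.len x y := by
  rcases Nat.eq_zero_or_pos x with rfl | h0
  · rw [hS.2.1] at h; simp at h
  · exact (hS.2.2.1 x h0 hx).2.2.2.2 y h

theorem St.conn_el {S : St} {w : ℕ} (hS : S.Valid w) (x y : Fin S.n) (h : S.graph.Adj x y) :
    0 < S.el x y ∧ S.el x y = S.el y x ∧ ∀ c, |S.pos x.val c - S.pos y.val c| ≤ S.el x y := by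
  unfold St.el
  rcases h.2 with h' | h'
  · obtain ⟨h1, h2, h3⟩ := St.conn_mem hS x.2 h'
    rw [if_pos h1, if_neg (not_lt.2 h1.le)]
    exact ⟨h2, rfl, h3⟩
  · obtain ⟨h1, h2, h3⟩ := St.conn_mem hS y.2 h'
    rw [if_neg (not_lt.2 h1.le), if_pos h1]
    exact ⟨h2, rfl, fun c => by rw [abs_sub_comm]; exact h3 c⟩

theorem St.conn_walk {S : St} {w : ℕ} (hS : S.Valid w) {x y : Fin S.n} (p : S.graph.Walk x y)
    (c : ℕ) : |S.pos x.val c - S.pos y.val c| ≤ walkLen S.el p := by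
  induction p with
  | nil => simp [walkLen]
  | @cons u v t h p ih =>
    have h1 := (St.conn_el hS u v h).2.2 c
    have h2 := abs_sub_le (S.pos u.val c) (S.pos v.val c) (S.pos t.val c)
    have e : walkLen S.el (SimpleGraph.Walk.cons h p) = S.el u v + walkLen S.el p := by
      simp [walkLen]
    rw [e]
    linarith

theorem St.graph_connected {S : St} {w : ℕ} (hS : S.Valid w) : S.graph.Connected := by
  have h0 : ∀ (v : ℕ) (hv : v < S.n), S.graph.Reachable ⟨v, hv⟩ ⟨0, hS.1⟩ := by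
    intro v
    induction v using Nat.strong_induction_on with
    | _ v ih =>
      intro hv
      rcases Nat.eq_zero_or_pos v with rfl | h0
      · exact SimpleGraph.Reachable.refl _
      · obtain ⟨b, hb⟩ := (hS.2.2.1 v h0 hv).2.1
        have h1 := (St.conn_mem hS hv hb).1
        have ha : S.graph.Adj ⟨v, hv⟩ ⟨b, h1.trans hv⟩ :=
          ⟨fun h => h1.ne' (congrArg Fin.val h), Or.inl hb⟩
        exact ha.reachable.trans (ih b h1 _)
  haveI : Nonempty (Fin S.n) := ⟨⟨0, hS.1⟩⟩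
  exact ⟨fun x y => (h0 x.1 x.2).trans (h0 y.1 y.2).symm⟩

theorem St.el_pos {S : St} {w : ℕ} (hS : S.Valid w) (x y : Fin S.n) (h : S.graph.Adj x y) :
    0 < S.el x y ∧ S.el x y = S.el y x := by
  exact ⟨(St.conn_el hS x y h).1, (St.conn_el hS x y h).2.1⟩

theorem St.pos_le_spDist {S : St} {w : ℕ} (hS : S.Valid w) (x y : Fin S.n) (c : ℕ) :
    |S.pos x.val c - S.pos y.val c| ≤ spDist S.graph S.el x y := by
  obtain ⟨p⟩ := (St.graph_connected hS).preconnected x y
  refine le_csInf ⟨_, p, rfl⟩ ?_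
  rintro _ ⟨p, rfl⟩
  exact St.conn_walk hS p c

theorem St.spDist_le {S : St} {w : ℕ} (hS : S.Valid w) (x y : Fin S.n) (h : y.val ∈ S.W x.val) :
    0 ≤ spDist S.graph S.el x y ∧ spDist S.graph S.el x y ≤ S.len x.val y.val := by
  refine ⟨(abs_nonneg _).trans (St.pos_le_spDist hS x y 0), ?_⟩
  have h1 := (St.conn_mem hS x.2 h).1
  have ha : S.graph.Adj x y := ⟨fun e => h1.ne' (congrArg Fin.val e), Or.inl h⟩
  have hb : BddBelow (Set.range fun p : S.graph.Walk x y => walkLen S.el p) := by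
    refine ⟨0, ?_⟩
    rintro _ ⟨p, rfl⟩
    exact (abs_nonneg _).trans (St.conn_walk hS p 0)
  refine (csInf_le hb ⟨SimpleGraph.Walk.cons ha SimpleGraph.Walk.nil, rfl⟩).trans (le_of_eq ?_)
  have e : S.el x y = S.len x.val y.val := by unfold St.el; rw [if_pos h1]
  simp [walkLen, e]

end Vale.Agent.P235
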