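import Vale.Agent.P235.Stmt

namespace Vale.Agent.P235

/-- a bounded-width graph built vertex by vertex -/
structure St where
  n : ℕ
  W : ℕ → Finset ℕ
  par : ℕ → ℕ
  len : ℕ → ℕ → ℝ
  pos : ℕ → ℕ → ℝ

def St.Valid (w : ℕ) (S : St) : Prop :=
  0 < S.n ∧ S.W 0 = ∅ ∧
  (∀ v, 0 < v → v < S.n → S.par v < v ∧ (S.W v).Nonempty ∧
    S.W v ⊆ insert (S.par v) (S.W (S.par v)) ∧ (S.W v).card ≤ w ∧
    ∀ b ∈ S.W v, b < v ∧ 0 < S.len v b ∧ ∀ c, |S.pos v c - S.pos b c| ≤ S.len v b) ∧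
  ∀ v < S.n, ∀ c, S.n ≤ c → S.pos v c = 0

def St.Ext (S S' : St) : Prop :=
  S.n ≤ S'.n ∧ ∀ v < S.n, S'.W v = S.W v ∧ S'.len v = S.len v ∧ S'.pos v = S.pos v

def St.Rel (S : St) (x y : ℕ) (r : ℝ) : Prop :=
  x < S.n ∧ y < S.n ∧ ((y ∈ S.W x ∧ S.len x y = r) ∨ (x ∈ S.W y ∧ S.len y x = r))

def St.Pos (S : St) (A : Finset ℕ) : Prop := ∃ t < S.n, A ⊆ insert t (S.W t)

def St.Anc (S : St) (A : Finset ℕ) (ρ : ℕ → ℝ) (x : ℕ) : Prop := ∀ p ∈ A, S.Rel x p (ρ p)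

def St.Good (C : ℝ) (S : St) (F : ℕ → ℕ → ℝ) : Prop :=
  (∀ x y, F x y = F y x) ∧ (∀ x y z, F x z ≤ F x y + F y z) ∧
  (∀ u v a j j', F u v + F a j + F a j' + F j j' ≤
    F u a + F v a + F u j + F v j + F u j' + F v j') ∧
  (∀ x < S.n, ∀ y < S.n, ∀ c, |S.pos x c - S.pos y c| ≤ F x y) ∧
  (∀ x < S.n, ∀ b ∈ S.W x, F x b ≤ C * S.len x b)

def St.Win (w : ℕ) (C : ℝ) (S : St) (K : (ℕ → ℕ → ℝ) → Prop) : Prop :=
  ∃ S' : St, S'.Valid w ∧ S.Ext S' ∧ ∀ F, S'.Good C F → ¬ K F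

/-- the graph of a structure -/
def St.graph (S : St) : SimpleGraph (Fin S.n) where
  Adj x y := x ≠ y ∧ (y.val ∈ S.W x.val ∨ x.val ∈ S.W y.val)
  symm := ⟨fun _ _ h => ⟨h.1.symm, h.2.symm⟩⟩
  loopless := ⟨fun _ h => h.1 rfl⟩

/-- its edge lengths -/
noncomputable def St.el (S : St) (x y : Fin S.n) : ℝ :=
  if y.val < x.val then S.len x.val y.val else S.len y.val x.val

end Vale.Agent.P235
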