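import Vale.Agent.P235.Defs

namespace Vale.Agent.P235

open MeasureTheory

theorem pent_real (u v a j j' : ℝ) :
    |u - v| + |a - j| + |a - j'| + |j - j'| ≤
      |u - a| + |v - a| + |u - j| + |v - j| + |u - j'| + |v - j'| := by
  have h1 := le_abs_self (u - a)
  have h2 := neg_abs_le (u - a)
  have h3 := le_abs_self (v - a)
  have h4 := neg_abs_le (v - a)
  have h5 := le_abs_self (u - j)
  have h6 := neg_abs_le (u - j)
  have h7 := le_abs_self (v - j)
  have h8 := neg_abs_le (v - j)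
  have h9 := le_abs_self (u - j')
  have h10 := neg_abs_le (u - j')
  have h11 := le_abs_self (v - j')
  have h12 := neg_abs_le (v - j')
  rcases abs_cases (u - v) with ⟨e1, f1⟩ | ⟨e1, f1⟩ <;>
  rcases abs_cases (a - j) with ⟨e2, f2⟩ | ⟨e2, f2⟩ <;>
  rcases abs_cases (a - j') with ⟨e3, f3⟩ | ⟨e3, f3⟩ <;>
  rcases abs_cases (j - j') with ⟨e4, f4⟩ | ⟨e4, f4⟩ <;>
  rw [e1, e2, e3, e4] <;> linarith

theorem pent_norm {Ω : Type} [MeasurableSpace Ω] {μ : Measure Ω} (x y : Lp ℝ 1 μ) :
    ‖x - y‖ = ∫ t, |x t - y t| ∂μ := by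
  rw [L1.norm_eq_integral_norm]
  refine integral_congr_ae ?_
  filter_upwards [Lp.coeFn_sub x y] with t ht
  rw [ht, Pi.sub_apply, Real.norm_eq_abs]

theorem pent_int {Ω : Type} [MeasurableSpace Ω] {μ : Measure Ω} (x y : Lp ℝ 1 μ) :
    Integrable (fun t => |x t - y t|) μ :=
  ((L1.integrable_coeFn x).sub (L1.integrable_coeFn y)).abs

theorem pent_L1 {Ω : Type} [MeasurableSpace Ω] {μ : Measure Ω} (u v a j j' : Lp ℝ 1 μ) :
    ‖u - v‖ + ‖a - j‖ + ‖a - j'‖ + ‖j - j'‖ ≤
      ‖u - a‖ + ‖v - a‖ + ‖u - j‖ + ‖v - j‖ + ‖u - j'‖ + ‖v - j'‖ := by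
  have l1 := (pent_int u v).add (pent_int a j)
  have l2 := l1.add (pent_int a j')
  have l3 := l2.add (pent_int j j')
  have r1 := (pent_int u a).add (pent_int v a)
  have r2 := r1.add (pent_int u j)
  have r3 := r2.add (pent_int v j)
  have r4 := r3.add (pent_int u j')
  have r5 := r4.add (pent_int v j')
  have h := integral_mono l3 r5 fun t => pent_real (u t) (v t) (a t) (j t) (j' t)
  rw [integral_add' l2 (pent_int j j'), integral_add' l1 (pent_int a j'),
    integral_add' (pent_int u v) (pent_int a j), integral_add' r4 (pent_int v j'),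
    integral_add' r3 (pent_int u j'), integral_add' r2 (pent_int v j),
    integral_add' r1 (pent_int u j), integral_add' (pent_int u a) (pent_int v a)] at h
  simp only [pent_norm]
  exact h

end Vale.Agent.P235
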