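import Vale.Agent.P235.ParTree

namespace Vale.Agent.P235

theorem St.treewidth {S : St} {w : ℕ} (hS : S.Valid w) : TreewidthLE S.graph w := by
  classical
  obtain ⟨hn, h0, hv, -⟩ := hS
  let B : Fin S.n → Finset (Fin S.n) := fun t =>
    Finset.univ.filter fun v => v.val ∈ insert t.val (S.W t.val)
  have hB : ∀ t v, v ∈ B t ↔ v.val = t.val ∨ v.val ∈ S.W t.val := by
    intro t v
    simp [B]
  refine ⟨Fin S.n, inferInstance, parGraph S.n S.par, B,
    parGraph_isTree hn fun v h1 h2 => (hv v h1 h2).1, ?_, ?_, ?_⟩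
  · rintro u v ⟨-, h | h⟩
    · exact ⟨u, (hB _ _).2 (Or.inl rfl), (hB _ _).2 (Or.inr h)⟩
    · exact ⟨v, (hB _ _).2 (Or.inr h), (hB _ _).2 (Or.inl rfl)⟩
  · intro v
    have hvv : v ∈ {t | v ∈ B t} := (hB _ _).2 (Or.inl rfl)
    have key : ∀ k : ℕ, ∀ t : {t | v ∈ B t}, t.val.val = k →
        ((parGraph S.n S.par).induce {t | v ∈ B t}).Reachable t ⟨v, hvv⟩ := by
      intro k
      induction k using Nat.strong_induction_on with
      | _ k ih =>
        rintro ⟨t, ht⟩ hk
        rcases (hB _ _).1 ht with h | h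
        · have : t = v := Fin.ext h.symm
          subst this
          rfl
        · have ht0 : 0 < t.val := by
            rcases Nat.eq_zero_or_pos t.val with h' | h'
            · rw [h', h0] at h; simp at h
            · exact h'
          obtain ⟨a1, -, a2, -⟩ := hv t.val ht0 t.isLt
          let t' : Fin S.n := ⟨S.par t.val, a1.trans t.isLt⟩
          have ht' : t' ∈ {t | v ∈ B t} := (hB _ _).2 (Finset.mem_insert.1 (a2 h))
          have hadj : ((parGraph S.n S.par).induce {t | v ∈ B t}).Adj ⟨t, ht⟩ ⟨t', ht'⟩ := by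
            refine ⟨fun h' => ?_, Or.inl ⟨ht0, rfl⟩⟩
            have := congrArg Fin.val h'
            exact absurd this a1.ne'
          exact hadj.reachable.trans (ih (S.par t.val) (hk ▸ a1) ⟨t', ht'⟩ rfl)
    haveI : Nonempty {t | v ∈ B t} := ⟨⟨v, hvv⟩⟩
    exact ⟨fun a b => (key _ a rfl).trans (key _ b rfl).symm⟩
  · intro t
    have h1 : (B t).card ≤ (insert t.val (S.W t.val)).card :=
      Finset.card_le_card_of_injOn Fin.val (fun v hv => (Finset.mem_filter.1 hv).2)
        Fin.val_injective.injOn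
    refine h1.trans ((Finset.card_insert_le _ _).trans (Nat.add_le_add_right ?_ 1))
    rcases Nat.eq_zero_or_pos t.val with h' | h'
    · rw [h', h0]; simp
    · exact (hv t.val h' t.isLt).2.2.2.1

end Vale.Agent.P235
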