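import Vale.Agent.P235.Game
import Vale.Agent.P235.Conn
import Vale.Agent.P235.TreeW
import Vale.Agent.P235.Pent

namespace Vale.Agent.P235

open MeasureTheory

theorem final (k : ℕ) (C : ℝ) (hC : C < k + 1) :
    ∃ (n : ℕ) (G : SimpleGraph (Fin n)) (l : Fin n → Fin n → ℝ), G.Connected ∧
      (∀ u v, G.Adj u v → 0 < l u v ∧ l u v = l v u) ∧ TreewidthLE G (2 * k + 1) ∧
      ∀ (Ω : Type) [MeasurableSpace Ω] (μ : Measure Ω) (f : Fin n → Lp ℝ 1 μ),
        ¬ ∀ x y, spDist G l x y ≤ ‖f x - f y‖ ∧ ‖f x - f y‖ ≤ C * spDist G l x y := by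
  obtain ⟨S, hS, hG⟩ := game k (max C 0) (max_lt hC (by positivity))
  refine ⟨S.n, S.graph, S.el, St.graph_connected hS, St.el_pos hS, St.treewidth hS,
    fun Ω _ μ f hf => ?_⟩
  obtain ⟨g, hg⟩ : ∃ g : ℕ → Lp ℝ 1 μ, ∀ x (h : x < S.n), g x = f ⟨x, h⟩ :=
    ⟨fun x => if h : x < S.n then f ⟨x, h⟩ else 0, fun x h => dif_pos h⟩
  refine hG (fun x y => ‖g x - g y‖) ⟨fun x y => norm_sub_rev _ _,
    fun x y z => norm_sub_le_norm_sub_add_norm_sub _ _ _, fun u v a j j' => pent_L1 _ _ _ _ _,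
    fun x hx y hy c => ?_, fun x hx b hb => ?_⟩
  · simp only [hg x hx, hg y hy]
    exact (St.pos_le_spDist hS ⟨x, hx⟩ ⟨y, hy⟩ c).trans (hf _ _).1
  · have h0 : 0 < x := by
      rcases Nat.eq_zero_or_pos x with rfl | h
      · rw [hS.2.1] at hb
        exact absurd hb (Finset.notMem_empty _)
      · exact h
    have hbn : b < S.n := ((hS.2.2.1 x h0 hx).2.2.2.2 b hb).1.trans hx
    obtain ⟨h1, h2⟩ := St.spDist_le hS ⟨x, hx⟩ ⟨b, hbn⟩ hb
    simp only [hg x hx, hg b hbn]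
    exact (hf _ _).2.trans (mul_le_mul (le_max_left _ _) h2 h1 (le_max_right _ _))

end Vale.Agent.P235
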