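import Vale.Agent.P235.Add

namespace Vale.Agent.P235

theorem St.fresh_pair {S : St} {w : ℕ} (hS : S.Valid w) {A : Finset ℕ} {ρ : ℕ → ℝ} {a b : ℕ}
    {δ : ℝ} (hA : S.Pos (insert a (insert b A))) (hc : A.card + 3 ≤ w) (hab : S.Rel a b δ)
    (ha : S.Anc A ρ a) (hb : S.Anc A ρ b) (hρ : ∀ p ∈ A, δ ≤ ρ p) :
    ∃ (S' : St) (u v : ℕ), S'.Valid w ∧ S.Ext S' ∧
      S'.Pos (insert u (insert v (insert a (insert b A)))) ∧ S'.Rel u v (δ / 2) ∧
      S'.Rel u a (δ / 2) ∧ S'.Rel u b (δ / 2) ∧ S'.Rel v a (δ / 2) ∧ S'.Rel v b (δ / 2) ∧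
      S'.Anc A ρ u ∧ S'.Anc A ρ v ∧
      ∀ (C : ℝ) (F : ℕ → ℕ → ℝ), S'.Good C F → δ / 2 ≤ F u v := by
  classical
  have δ0 : 0 < δ := hab.pos hS
  have an : a < S.n := hab.1
  have bn : b < S.n := hab.2.1
  have aA : a ∉ A := fun h => (ha a h).ne hS rfl
  have bA : b ∉ A := fun h => (hb b h).ne hS rfl
  have An : ∀ s ∈ A, s < S.n := fun s hs => (ha s hs).2.1
  have z : ∀ v < S.n, ∀ c, S.n ≤ c → S.pos v c = 0 := hS.2.2.2
  obtain ⟨κ, hκ⟩ : ∃ κ : ℕ → ℝ, κ = fun s => if s = S.n ∨ s = a ∨ s = b then δ / 2 else ρ s :=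
    ⟨_, rfl⟩
  have κa : κ a = δ / 2 := by simp [hκ]
  have κb : κ b = δ / 2 := by simp [hκ]
  have κn : κ S.n = δ / 2 := by simp [hκ]
  have κA : ∀ s ∈ A, κ s = ρ s := by
    intro s hs
    have h1 : s ≠ S.n := (An s hs).ne
    have h2 : s ≠ a := fun h => aA (h ▸ hs)
    have h3 : s ≠ b := fun h => bA (h ▸ hs)
    simp [hκ, h1, h2, h3]
  obtain ⟨q, hq⟩ : ∃ q : ℝ → ℕ → ℝ, q = fun σ c => (S.pos a c + S.pos b c) / 2 +
      if c = S.n then σ else 0 := ⟨_, rfl⟩
  have qn : ∀ σ, q σ S.n = σ := by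
    intro σ
    simp [hq, z a an _ le_rfl, z b bn _ le_rfl]
  have qo : ∀ σ c, c ≠ S.n → q σ c = (S.pos a c + S.pos b c) / 2 := by
    intro σ c hc
    simp [hq, hc]
  have qz : ∀ σ c, S.n < c → q σ c = 0 := by
    intro σ c hc
    rw [qo σ c hc.ne', z a an _ hc.le, z b bn _ hc.le]; simp
  have key : ∀ σ : ℝ, |σ| ≤ δ / 2 → ∀ s ∈ insert a (insert b A),
      0 < κ s ∧ ∀ c, |q σ c - S.pos s c| ≤ κ s := by
    intro σ hσ s hs
    simp only [Finset.mem_insert] at hs
    rcases hs with rfl | rfl | hs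
    · refine ⟨by rw [κa]; positivity, fun c => ?_⟩
      rw [κa]
      by_cases hc : c = S.n
      · rw [hc, qn, z s an _ le_rfl, sub_zero]; exact hσ
      · rw [qo σ c hc]
        have := abs_le.1 (hab.near hS c)
        exact abs_le.2 ⟨by linarith, by linarith⟩
    · refine ⟨by rw [κb]; positivity, fun c => ?_⟩
      rw [κb]
      by_cases hc : c = S.n
      · rw [hc, qn, z s bn _ le_rfl, sub_zero]; exact hσ
      · rw [qo σ c hc]
        have := abs_le.1 (hab.near hS c)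
        exact abs_le.2 ⟨by linarith, by linarith⟩
    · have h1 := hρ s hs
      rw [κA s hs]
      refine ⟨by linarith, fun c => ?_⟩
      by_cases hc : c = S.n
      · rw [hc, qn, z s (An s hs) _ le_rfl, sub_zero]; linarith
      · rw [qo σ c hc]
        have h2 := abs_le.1 ((ha s hs).near hS c)
        have h3 := abs_le.1 ((hb s hs).near hS c)
        exact abs_le.2 ⟨by linarith, by linarith⟩
  have c2 : (insert a (insert b A)).card ≤ A.card + 2 := by
    have h1 := Finset.card_insert_le a (insert b A)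
    have h2 := Finset.card_insert_le b A
    omega
  have s1 : |δ / 4| ≤ δ / 2 := abs_le.2 ⟨by linarith, by linarith⟩
  have s2 : |-(δ / 4)| ≤ δ / 2 := abs_le.2 ⟨by linarith, by linarith⟩
  obtain ⟨S1, v1, e1, n1, p1, r1, q1⟩ := St.add_vertex hS hA (Finset.insert_nonempty _ _)
    (by omega) κ (q (δ / 4)) (key _ s1) (qz _)
  have c3 := Finset.card_insert_le S.n (insert a (insert b A))
  obtain ⟨S2, v2, e2, n2, p2, r2, q2⟩ := St.add_vertex v1 p1 (Finset.insert_nonempty _ _)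
    (by omega) κ (q (-(δ / 4))) (fun s hs => by
      rcases Finset.mem_insert.1 hs with rfl | hs
      · refine ⟨by rw [κn]; positivity, fun c => ?_⟩
        rw [κn, q1]
        by_cases hc : c = S.n
        · rw [hc, qn, qn]
          exact abs_le.2 ⟨by linarith, by linarith⟩
        · rw [qo _ c hc, qo _ c hc, sub_self, abs_zero]; positivity
      · have hs' : s < S.n := by
          simp only [Finset.mem_insert] at hs
          rcases hs with rfl | rfl | hs
          exacts [an, bn, An s hs]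
        rw [(e1.2 s hs').2.2]
        exact key _ s2 s hs) (fun c hc => qz _ c (by omega))
  have ma : a ∈ insert a (insert b A) := by simp
  have mb : b ∈ insert a (insert b A) := by simp
  have mA : ∀ s ∈ A, s ∈ insert a (insert b A) := fun s hs => by simp [hs]
  refine ⟨S2, S.n, S1.n, v2, e1.trans e2, ?_, ?_, κa ▸ (r1 a ma).ext e2, κb ▸ (r1 b mb).ext e2,
    κa ▸ r2 a (Finset.mem_insert_of_mem ma), κb ▸ r2 b (Finset.mem_insert_of_mem mb),
    fun s hs => κA s hs ▸ (r1 s (mA s hs)).ext e2,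
    fun s hs => κA s hs ▸ r2 s (Finset.mem_insert_of_mem (mA s hs)), fun C F hF => ?_⟩
  · rw [Finset.insert_comm]; exact p2
  · exact κn ▸ (r2 S.n (Finset.mem_insert_self _ _)).symm
  · have h := hF.2.2.2.1 S.n (by omega) S1.n (by omega) S.n
    rw [q2, (e2.2 S.n (by omega)).2.2, q1, qn, qn] at h
    linarith [le_abs_self (δ / 4 - -(δ / 4))]

end Vale.Agent.P235
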