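import Vale.Agent.P235.Add

namespace Vale.Agent.P235

theorem Twin.clamp {x y q δ l : ℝ} (hl : 0 < l) (h1 : |x - y| ≤ l) (h2 : |x - q| ≤ δ / 2)
    (h3 : |y - q| ≤ δ / 2) (h4 : l ≤ δ / 2) :
    |max (max x y - l / 2) (min q (min x y + l / 2)) - x| ≤ l / 2 ∧
    |max (max x y - l / 2) (min q (min x y + l / 2)) - y| ≤ l / 2 ∧
    |max (max x y - l / 2) (min q (min x y + l / 2)) - q| ≤ δ / 2 - l / 2 ∧
    ∀ a r, |x - a| ≤ r → |y - a| ≤ r → |q - a| ≤ r →
      |max (max x y - l / 2) (min q (min x y + l / 2)) - a| ≤ r := by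
  simp only [abs_le] at h1 h2 h3 ⊢
  simp only [max_def, min_def]
  refine ⟨?_, ?_, ?_, fun a r a1 a2 a3 => ?_⟩ <;> split_ifs <;> constructor <;> linarith

theorem St.twin_add {S : St} {w : ℕ} (hS : S.Valid w) {A : Finset ℕ} {ρ : ℕ → ℝ} {b u v : ℕ}
    {δ l : ℝ} (hA : S.Pos (insert u (insert v (insert b A)))) (hc : A.card + 3 ≤ w)
    (huv : S.Rel u v l) (hub : S.Rel u b (δ / 2)) (hvb : S.Rel v b (δ / 2)) (hl : l ≤ δ / 2)
    (hu : S.Anc A ρ u) (hv : S.Anc A ρ v) (hb : S.Anc A ρ b) (hρ : ∀ p ∈ A, δ ≤ ρ p) :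
    ∃ (S' : St) (j j' : ℕ), S'.Valid w ∧ S.Ext S' ∧
      S'.Pos (insert j (insert u (insert v (insert b A)))) ∧
      S'.Pos (insert j' (insert u (insert v (insert b A)))) ∧
      S'.Rel j u (l / 2) ∧ S'.Rel j v (l / 2) ∧ S'.Rel j b (δ / 2 - l / 2) ∧ S'.Anc A ρ j ∧
      S'.Rel j' u (l / 2) ∧ S'.Rel j' v (l / 2) ∧ S'.Rel j' b (δ / 2 - l / 2) ∧ S'.Anc A ρ j' ∧
      ∀ (C : ℝ) (F : ℕ → ℕ → ℝ), S'.Good C F → l ≤ F j j' := by
  have l0 : 0 < l := huv.pos hS
  obtain ⟨z, hz⟩ : ∃ z : ℕ → ℝ, ∀ c, z c = max (max (S.pos u c) (S.pos v c) - l / 2)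
      (min (S.pos b c) (min (S.pos u c) (S.pos v c) + l / 2)) := ⟨_, fun _ => rfl⟩
  obtain ⟨κ, hκ⟩ : ∃ κ : ℕ → ℝ, ∀ s, κ s =
      if s = u ∨ s = v then l / 2 else if s = b then δ / 2 - l / 2 else ρ s := ⟨_, fun _ => rfl⟩
  have ku : κ u = l / 2 := by rw [hκ, if_pos (Or.inl rfl)]
  have kv : κ v = l / 2 := by rw [hκ, if_pos (Or.inr rfl)]
  have kb : κ b = δ / 2 - l / 2 := by
    rw [hκ, if_neg (not_or.2 ⟨(hub.ne hS).symm, (hvb.ne hS).symm⟩), if_pos rfl]
  have kA : ∀ s ∈ A, κ s = ρ s := fun s hs => by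
    rw [hκ, if_neg (not_or.2 ⟨((hu s hs).ne hS).symm, ((hv s hs).ne hS).symm⟩),
      if_neg ((hb s hs).ne hS).symm]
  have hz0 : ∀ c, S.n ≤ c → z c = 0 := fun c hc => by
    rw [hz, hS.2.2.2 u huv.1 c hc, hS.2.2.2 v huv.2.1 c hc, hS.2.2.2 b hub.2.1 c hc]
    simp only [max_self, min_self, zero_add, zero_sub]
    rw [min_eq_left (by linarith), max_eq_right (by linarith)]
  have hlt : ∀ s ∈ insert u (insert v (insert b A)), s < S.n := by
    intro s hs
    simp only [Finset.mem_insert] at hs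
    rcases hs with rfl | rfl | rfl | hs
    · exact huv.1
    · exact huv.2.1
    · exact hub.2.1
    · exact (hu s hs).2.1
  have hk : ∀ s ∈ insert u (insert v (insert b A)), l / 2 ≤ κ s ∧ ∀ c, |z c - S.pos s c| ≤ κ s := by
    intro s hs
    have hcl := fun c => Twin.clamp l0 (huv.near hS c) (hub.near hS c) (hvb.near hS c) hl
    simp only [← hz] at hcl
    simp only [Finset.mem_insert] at hs
    rcases hs with rfl | rfl | rfl | hs
    · rw [ku]
      exact ⟨le_rfl, fun c => (hcl c).1⟩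
    · rw [kv]
      exact ⟨le_rfl, fun c => (hcl c).2.1⟩
    · rw [kb]
      exact ⟨by linarith, fun c => (hcl c).2.2.1⟩
    · rw [kA s hs]
      exact ⟨by linarith [hρ s hs], fun c => (hcl c).2.2.2 _ _ ((hu s hs).near hS c)
        ((hv s hs).near hS c) ((hb s hs).near hS c)⟩
  have hk2 : ∀ e : ℝ, |e| ≤ l / 2 → ∀ s ∈ insert u (insert v (insert b A)), 0 < κ s ∧
      ∀ c, |(z c + if c = S.n then e else 0) - S.pos s c| ≤ κ s := by
    intro e he s hs
    refine ⟨by linarith [(hk s hs).1], fun c => ?_⟩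
    split_ifs with h
    · rw [hz0 c h.ge, hS.2.2.2 s (hlt s hs) c h.ge, zero_add, sub_zero]
      exact he.trans (hk s hs).1
    · rw [add_zero]
      exact (hk s hs).2 c
  have hcard : (insert u (insert v (insert b A))).card ≤ w := by
    have h1 := Finset.card_insert_le u (insert v (insert b A))
    have h2 := Finset.card_insert_le v (insert b A)
    have h3 := Finset.card_insert_le b A
    omega
  obtain ⟨S1, a1, a2, a3, a4, a5, a6⟩ := St.add_vertex hS hA (Finset.insert_nonempty _ _) hcard κ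
    (fun c => z c + if c = S.n then l / 2 else 0) (hk2 _ (by rw [abs_of_pos (by linarith)]))
    fun c hc => by rw [hz0 c hc.le, if_neg hc.ne', add_zero]
  obtain ⟨S2, b1, b2, b3, b4, b5, b6⟩ := St.add_vertex a1 (hA.ext a2) (Finset.insert_nonempty _ _)
    hcard κ (fun c => z c + if c = S.n then -(l / 2) else 0)
    (fun s hs => by
      rw [(a2.2 s (hlt s hs)).2.2]
      exact hk2 _ (by rw [abs_neg, abs_of_pos (by linarith)]) s hs)
    fun c hc => by rw [hz0 c (by omega), if_neg (by omega), add_zero]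
  refine ⟨S2, S.n, S1.n, b1, a2.trans b2, a4.ext b2, b4, ?_, ?_, ?_, fun s hs => ?_, ?_, ?_, ?_,
    fun s hs => ?_, fun C F hF => ?_⟩
  · exact ku ▸ (a5 u (by simp)).ext b2
  · exact kv ▸ (a5 v (by simp)).ext b2
  · exact kb ▸ (a5 b (by simp)).ext b2
  · exact kA s hs ▸ (a5 s (by simp [hs])).ext b2
  · exact ku ▸ b5 u (by simp)
  · exact kv ▸ b5 v (by simp)
  · exact kb ▸ b5 b (by simp)
  · exact kA s hs ▸ b5 s (by simp [hs])
  · have h1 := hF.2.2.2.1 S.n (by omega) S1.n (by omega) S.n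
    rw [b6, (b2.2 S.n (by omega)).2.2, a6] at h1
    simp only [if_true] at h1
    linarith [le_abs_self (z S.n + l / 2 - (z S.n + -(l / 2)))]

end Vale.Agent.P235
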