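import Vale.Agent.P235.Fresh
import Vale.Agent.P235.Twin

namespace Vale.Agent.P235

/-- persistent win -/
def PW (w : ℕ) (C : ℝ) (S : St) (K : (ℕ → ℕ → ℝ) → Prop) : Prop :=
  ∀ S' : St, S'.Valid w → S.Ext S' → S'.Win w C K

theorem PW.or {w : ℕ} {C : ℝ} {S : St} {K1 K2 : (ℕ → ℕ → ℝ) → Prop} (h1 : PW w C S K1)
    (h2 : PW w C S K2) : PW w C S (fun F => K1 F ∨ K2 F) := by
  intro S' hv he
  exact St.win_or (h1 S' hv he) (fun S'' hv' he' => h2 S'' hv' (he.trans he')) (fun F _ h => h)

def ExitW (w : ℕ) (C θ lam : ℝ) (S : St) (A : Finset ℕ) (ρ : ℕ → ℝ) (a b : ℕ) (δ : ℝ)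
    (K : (ℕ → ℕ → ℝ) → Prop) : Prop :=
  ∀ (S' : St) (x y : ℕ) (l : ℝ), S'.Valid w → S.Ext S' → S'.Pos (insert x (insert y A)) →
    S'.Rel x y l → S'.Anc A ρ x → S'.Anc A ρ y → lam * δ ≤ l → l ≤ δ →
    S'.Win w C (fun F => K F ∧ (F a b / δ + (1 - θ) * lam / 5) * l ≤ F x y)

def Claim (w : ℕ) (C θ : ℝ) (h : ℕ) (lam : ℝ) : Prop :=
  ∀ (S : St) (A : Finset ℕ) (ρ : ℕ → ℝ) (a b : ℕ) (δ : ℝ) (K : (ℕ → ℕ → ℝ) → Prop),
    S.Valid w → S.Pos (insert a (insert b A)) → A.card + 2 * h + 1 ≤ w → S.Rel a b δ →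
    S.Anc A ρ a → S.Anc A ρ b → (∀ p ∈ A, δ ≤ ρ p) →
    (∀ F, K F → δ ≤ F a b ∧ F a b < (1 + h * θ) * δ) → ExitW w C θ lam S A ρ a b δ K →
    S.Win w C K

theorem game_num {r gp δ l θ x uv ua va aj aj' ab uj vj jb uj' vj' jb' jj : ℝ}
    (hl : 0 < l) (hab : ab = r * δ) (hr : r < x + θ) (hgp : gp * (2 * δ + l) ≤ (1 - θ) * l)
    (h1 : ua < (r + gp) * (δ / 2)) (h2 : va < (r + gp) * (δ / 2))
    (h3 : uj < (r + gp) * (l / 2)) (h4 : vj < (r + gp) * (l / 2))
    (h5 : jb < (r + gp) * (δ / 2 - l / 2))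
    (h6 : uj' < (r + gp) * (l / 2)) (h7 : vj' < (r + gp) * (l / 2))
    (h8 : jb' < (r + gp) * (δ / 2 - l / 2))
    (t1 : ab ≤ aj + jb) (t2 : ab ≤ aj' + jb') (hj : l ≤ jj)
    (hp : uv + aj + aj' + jj ≤ ua + va + uj + vj + uj' + vj') : uv < x * l := by
  have : r * l < (x + θ) * l := mul_lt_mul_of_pos_right hr hl
  nlinarith

theorem game_loop {w h R : ℕ} {C θ lam g : ℝ} (hθ1 : θ < 1) (hlam : 0 < lam) (hlam1 : lam ≤ 1)
    (hg : g = (1 - θ) * lam / 5) (hR : C < 1 + R * g) (ih : Claim w C θ h lam)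
    {S : St} {A : Finset ℕ} {ρ : ℕ → ℝ} {a b : ℕ} {δ : ℝ} {K : (ℕ → ℕ → ℝ) → Prop}
    (hS : S.Valid w) (hc : A.card + 2 * (h + 1) + 1 ≤ w) (hab : S.Rel a b δ)
    (ha : S.Anc A ρ a) (hb : S.Anc A ρ b) (hρ : ∀ p ∈ A, δ ≤ ρ p)
    (hK : ∀ F, K F → δ ≤ F a b ∧ F a b < (1 + ((h + 1 : ℕ) : ℝ) * θ) * δ)
    (hexit : ExitW w C θ (lam ^ R / 4) S A ρ a b δ K) :
    ∀ (i n : ℕ), n + i = R → ∀ (S' : St) (u v : ℕ) (l : ℝ), S'.Valid w → S.Ext S' →
      S'.Pos (insert u (insert v (insert a (insert b A)))) → S'.Rel u v l →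
      S'.Rel u a (δ / 2) → S'.Rel u b (δ / 2) → S'.Rel v a (δ / 2) → S'.Rel v b (δ / 2) →
      S'.Anc A ρ u → S'.Anc A ρ v → lam ^ n * (δ / 2) ≤ l → l ≤ δ / 2 →
      S'.Win w C (fun F => K F ∧ (1 + n * g) * l ≤ F u v) := by
  have hδ : 0 < δ := hab.pos hS
  have hg0 : 0 < g := by rw [hg]; have : 0 < 1 - θ := by linarith
                         positivity
  have haA : a ∉ A := fun h => (ha a h).ne hS rfl
  have hbA : b ∉ A := fun h => (hb b h).ne hS rfl
  intro i
  induction i with
  | zero =>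
    intro n hn S' u v l hv he _ huv _ _ _ _ _ _ _ _
    have hnR : n = R := by omega
    subst hnR
    apply St.win_false hv
    rintro F hF ⟨-, h2⟩
    have h1 := huv.cap hF
    have hl := huv.pos hv
    nlinarith
  | succ i ihi =>
    intro n hn S' u v l hv he hpos huv hua hub hva hvb hu hv' hl1 hl2
    have hl := huv.pos hv
    have hpow : lam ^ R ≤ lam ^ n := pow_le_pow_of_le_one hlam.le hlam1 (by omega)
    have hpowR : 0 < lam ^ R := pow_pos hlam R
    have hpowR1 : lam ^ R ≤ 1 := pow_le_one₀ hlam.le hlam1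
    have hlow : lam ^ R / 4 * δ ≤ l / 2 := by nlinarith
    obtain ⟨S2, j, j', hv2, he2, hpj, hpj', ju, jv, jb, jA, ju', jv', jb', jA', hjj⟩ :=
      St.twin_add (A := A) (ρ := ρ) (b := b) (u := u) (v := v) (δ := δ) (l := l) hv
        (hpos.mono (by
          intro x hx
          simp only [Finset.mem_insert] at hx ⊢
          tauto)) (by omega) huv hub hvb hl2 hu hv' (hb.ext he) hρ
    have he02 : S.Ext S2 := he.trans he2
    have hex : ∀ (x y : ℕ) (m : ℝ), S2.Pos (insert x (insert y A)) → S2.Rel x y m →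
        S2.Anc A ρ x → S2.Anc A ρ y → lam ^ R / 4 * δ ≤ m → m ≤ δ →
        PW w C S2 (fun F => K F ∧ (F a b / δ + (1 - θ) * (lam ^ R / 4) / 5) * m ≤ F x y) := by
      intro x y m p1 p2 p3 p4 p5 p6 S3 hv3 he3
      exact hexit S3 x y m hv3 (he02.trans he3) (p1.ext he3) (p2.ext he3) (p3.ext he3)
        (p4.ext he3) p5 p6
    have hpos2 := hpos.ext he2
    have sub : ∀ {x y : ℕ} {B : Finset ℕ}, x ∈ B → y ∈ B → A ⊆ B → insert x (insert y A) ⊆ B := by
      intro x y B hx hy hA
      exact Finset.insert_subset hx (Finset.insert_subset hy hA)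
    have hA4 : ∀ p q r s : ℕ, A ⊆ insert p (insert q (insert r (insert s A))) := by
      intro p q r s x hx
      simp only [Finset.mem_insert]
      tauto
    have ha2 := ha.ext he02
    have hb2 := hb.ext he02
    have hu2 := hu.ext he2
    have hv2' := hv'.ext he2
    have e1 := hex u a (δ / 2) (hpos2.mono (sub (by simp) (by simp) (hA4 _ _ _ _))) (hua.ext he2)
      hu2 ha2 (by linarith) (by linarith)
    have e2 := hex v a (δ / 2) (hpos2.mono (sub (by simp) (by simp) (hA4 _ _ _ _))) (hva.ext he2)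
      hv2' ha2 (by linarith) (by linarith)
    have e3 := hex j u (l / 2) (hpj.mono (sub (by simp) (by simp) (hA4 _ _ _ _))) ju jA hu2 hlow
      (by linarith)
    have e4 := hex j v (l / 2) (hpj.mono (sub (by simp) (by simp) (hA4 _ _ _ _))) jv jA hv2' hlow
      (by linarith)
    have e5 := hex j b (δ / 2 - l / 2) (hpj.mono (sub (by simp) (by simp) (hA4 _ _ _ _))) jb jA hb2
      (by linarith) (by linarith)
    have e6 := hex j' u (l / 2) (hpj'.mono (sub (by simp) (by simp) (hA4 _ _ _ _))) ju' jA' hu2 hlow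
      (by linarith)
    have e7 := hex j' v (l / 2) (hpj'.mono (sub (by simp) (by simp) (hA4 _ _ _ _))) jv' jA' hv2' hlow
      (by linarith)
    have e8 := hex j' b (δ / 2 - l / 2) (hpj'.mono (sub (by simp) (by simp) (hA4 _ _ _ _))) jb' jA'
      hb2 (by linarith) (by linarith)
    have main : PW w C S2 (fun F => K F ∧ (1 + n * g) * l ≤ F u v ∧ F u v < (1 + h * θ) * l) := by
      intro S3 hv3 he3
      have he13 : S'.Ext S3 := he2.trans he3
      have hanc : ∀ x : ℕ, S'.Rel x a (δ / 2) → S'.Rel x b (δ / 2) → S'.Anc A ρ x →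
          S3.Anc (insert a (insert b A)) (fun p => if p = a ∨ p = b then δ / 2 else ρ p) x := by
        intro x h1 h2 h3 p hp
        by_cases hp' : p = a ∨ p = b
        · simp only [hp', if_true]
          rcases hp' with rfl | rfl
          · exact h1.ext he13
          · exact h2.ext he13
        · simp only [hp', if_false]
          have : p ∈ A := by
            simp only [Finset.mem_insert] at hp
            tauto
          exact (h3 p this).ext he13
      apply ih S3 (insert a (insert b A)) (fun p => if p = a ∨ p = b then δ / 2 else ρ p) u v l _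
        hv3 (hpos.ext he13) _ (huv.ext he13) (hanc u hua hub hu) (hanc v hva hvb hv')
      · intro p hp
        by_cases hp' : p = a ∨ p = b
        · simp only [hp', if_true]; exact hl2
        · simp only [hp', if_false]
          have : p ∈ A := by
            simp only [Finset.mem_insert] at hp
            tauto
          have := hρ p this
          linarith
      · rintro F ⟨-, h2, h3⟩
        refine ⟨?_, h3⟩
        have : 0 ≤ (n : ℝ) * g * l := by positivity
        nlinarith
      · intro S4 x y m hv4 he4 p1 p2 p3 p4 p5 p6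
        have hrel : ∀ z : ℕ, S4.Anc (insert a (insert b A))
            (fun p => if p = a ∨ p = b then δ / 2 else ρ p) z →
            S4.Rel z a (δ / 2) ∧ S4.Rel z b (δ / 2) ∧ S4.Anc A ρ z := by
          intro z hz
          refine ⟨?_, ?_, ?_⟩
          · simpa using hz a (by simp)
          · simpa using hz b (by simp)
          · intro p hp
            have h1 := hz p (by simp [hp])
            have h2 : ¬ (p = a ∨ p = b) := by
              rintro (rfl | rfl)
              · exact haA hp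
              · exact hbA hp
            simpa [h2] using h1
        obtain ⟨xa, xb, xA⟩ := hrel x p3
        obtain ⟨ya, yb, yA⟩ := hrel y p4
        have hm := p2.pos hv4
        have h := ihi (n + 1) (by omega) S4 x y m hv4 (he02.trans (he3.trans he4)) p1 p2 xa xb ya yb
          xA yA (by
            rw [pow_succ]
            have := mul_le_mul_of_nonneg_left hl1 hlam.le
            nlinarith) (by linarith)
        apply St.win_ext (St.ext_refl S4) h
        rintro F _ ⟨⟨h1, h2, -⟩, h3⟩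
        refine ⟨h1, ?_⟩
        have h4 : 1 + n * g ≤ F u v / l := by rw [le_div_iff₀ hl]; exact h2
        have h5 : (1 + n * g + g) * m ≤ (F u v / l + (1 - θ) * lam / 5) * m := by
          apply mul_le_mul_of_nonneg_right _ hm.le
          rw [← hg]; linarith
        push_cast
        nlinarith
      · have := Finset.card_insert_le a (insert b A)
        have := Finset.card_insert_le b A
        omega
    have all := ((((((((e1.or e2).or e3).or e4).or e5).or e6).or e7).or e8).or main) S2 hv2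
      (St.ext_refl S2)
    apply St.win_ext he2 all
    rintro F hF ⟨hKF, hn2⟩
    by_contra hcon
    simp only [not_or, not_and, not_le] at hcon
    obtain ⟨⟨⟨⟨⟨⟨⟨⟨c1, c2⟩, c3⟩, c4⟩, c5⟩, c6⟩, c7⟩, c8⟩, c9⟩ := hcon
    have hsym := hF.1
    have htri := hF.2.1
    have hr : F a b / δ < (1 + h * θ) + θ := by
      rw [div_lt_iff₀ hδ]
      have := (hK F hKF).2
      push_cast at this
      linarith
    have hgp : (1 - θ) * (lam ^ R / 4) / 5 * (2 * δ + l) ≤ (1 - θ) * l := by
      have h1 : 0 < 1 - θ := by linarith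
      have h2 : lam ^ R / 4 / 5 * (2 * δ + l) ≤ l := by nlinarith
      have := mul_le_mul_of_nonneg_left h2 h1.le
      nlinarith
    have := game_num (uv := F u v) (ab := F a b) (aj := F a j) (aj' := F a j') (jj := F j j') hl
      (by field_simp) hr hgp (c1 hKF) (c2 hKF) (c3 hKF) (c4 hKF) (c5 hKF) (c6 hKF) (c7 hKF)
      (c8 hKF) (htri a j b) (htri a j' b) (hjj C F hF) (by
        have := hF.2.2.1 u v a j j'
        rw [hsym j u, hsym j v, hsym j' u, hsym j' v]
        exact this)
    exact absurd this (not_lt.mpr (not_lt.mp (c9 hKF hn2)))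

theorem game_claim {w : ℕ} {C θ : ℝ} (hθ1 : θ < 1) :
    ∀ h : ℕ, ∃ lam : ℝ, 0 < lam ∧ lam ≤ 1 ∧ Claim w C θ h lam := by
  intro h
  induction h with
  | zero =>
    refine ⟨1, one_pos, le_rfl, ?_⟩
    intro S A ρ a b δ K hS _ _ _ _ _ _ hK _
    apply St.win_false hS
    intro F _ hKF
    have := hK F hKF
    simp at this
    linarith [this.1, this.2]
  | succ h ih =>
    obtain ⟨lam, h0, h1, hC⟩ := ih
    have hg0 : 0 < (1 - θ) * lam / 5 := by
      have : 0 < 1 - θ := by linarith
      positivity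
    obtain ⟨R, hR⟩ := exists_nat_gt (C / ((1 - θ) * lam / 5))
    rw [div_lt_iff₀ hg0] at hR
    refine ⟨lam ^ R / 4, by positivity, ?_, ?_⟩
    · have := pow_le_one₀ h0.le h1 (n := R)
      linarith
    · intro S A ρ a b δ K hS hpos hc hab ha hb hρ hK hexit
      obtain ⟨S', u, v, hv, he, p1, p2, p3, p4, p5, p6, p7, p8, hlow⟩ :=
        St.fresh_pair hS hpos (by omega) hab ha hb hρ
      have h := game_loop hθ1 h0 h1 rfl (by linarith) hC hS hc hab ha hb hρ hK hexit R 0 (by omega)
        S' u v (δ / 2) hv he p1 p2 p3 p4 p5 p6 p7 p8 (by simp) le_rfl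
      apply St.win_ext he h
      intro F hF hKF
      refine ⟨hKF, ?_⟩
      simpa using hlow C F hF

theorem game (k : ℕ) (C : ℝ) (hC : C < k + 1) :
    ∃ S : St, S.Valid (2 * k + 1) ∧ ∀ F, ¬ S.Good C F := by
  obtain ⟨θ, hθ1, hθ⟩ : ∃ θ : ℝ, θ < 1 ∧ C < 1 + k * θ := by
    refine ⟨1 - (k + 1 - C) / (2 * (k + 1)), ?_, ?_⟩
    · have : 0 < (k + 1 - C) / (2 * ((k : ℝ) + 1)) := by
        apply div_pos (by linarith) (by positivity)
      linarith
    · have hk : (0 : ℝ) ≤ k := Nat.cast_nonneg k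
      have h1 : (k : ℝ) * ((k + 1 - C) / (2 * (k + 1))) ≤ (k + 1 - C) / 2 := by
        rw [← mul_div_assoc, div_le_div_iff₀ (by positivity) (by norm_num)]
        nlinarith
      nlinarith
  obtain ⟨lam, h0, h1, hcl⟩ := game_claim (w := 2 * k + 1) (C := C) hθ1 k
  have hg0 : 0 < (1 - θ) * lam / 5 := by
    have : 0 < 1 - θ := by linarith
    positivity
  obtain ⟨g, hg⟩ : ∃ g : ℝ, g = (1 - θ) * lam / 5 := ⟨_, rfl⟩
  rw [← hg] at hg0
  obtain ⟨R, hR⟩ := exists_nat_gt (C / g)
  rw [div_lt_iff₀ hg0] at hR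
  have top : ∀ (i n : ℕ), n + i = R → ∀ (S : St) (a b : ℕ) (δ : ℝ), S.Valid (2 * k + 1) →
      S.Pos (insert a (insert b ∅)) → S.Rel a b δ →
      S.Win (2 * k + 1) C (fun F => (1 + n * g) * δ ≤ F a b) := by
    intro i
    induction i with
    | zero =>
      intro n hn S a b δ hv _ hab
      have hnR : n = R := by omega
      subst hnR
      apply St.win_false hv
      intro F hF h2
      have h1 := hab.cap hF
      have hl := hab.pos hv
      nlinarith
    | succ i ihi =>
      intro n hn S a b δ hv hpos hab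
      have hδ := hab.pos hv
      have h := hcl S ∅ (fun _ => 0) a b δ
        (fun F => (1 + n * g) * δ ≤ F a b ∧ F a b < (1 + k * θ) * δ) hv hpos (by simp) hab
        (by intro p hp; simp at hp) (by intro p hp; simp at hp) (by intro p hp; simp at hp)
        (by
          rintro F ⟨h2, h3⟩
          refine ⟨?_, h3⟩
          have : 0 ≤ (n : ℝ) * g * δ := by positivity
          nlinarith)
        (by
          intro S4 x y m hv4 he4 p1 p2 _ _ _ _
          have hm := p2.pos hv4
          have h := ihi (n + 1) (by omega) S4 x y m hv4 p1 p2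
          apply St.win_ext (St.ext_refl S4) h
          rintro F _ ⟨⟨h2, -⟩, h3⟩
          have h4 : 1 + n * g ≤ F a b / δ := by rw [le_div_iff₀ hδ]; exact h2
          have h5 : (1 + n * g + g) * m ≤ (F a b / δ + (1 - θ) * lam / 5) * m := by
            apply mul_le_mul_of_nonneg_right _ hm.le
            rw [← hg]; linarith
          push_cast
          nlinarith)
      apply St.win_ext (St.ext_refl S) h
      intro F hF h2
      refine ⟨h2, ?_⟩
      have h1 := hab.cap hF
      nlinarith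
  obtain ⟨S, hv, hpos, hrel, hlow⟩ := St.init (2 * k + 1) (by omega)
  obtain ⟨S', hv', he, hwin⟩ := top R 0 (by omega) S 1 0 1 hv (by simpa using hpos) hrel
  refine ⟨S', hv', fun F hF => hwin F hF ?_⟩
  simpa using hlow C F (hF.ext he)

end Vale.Agent.P235
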