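import Vale.Agent.P235.Defs

namespace Vale.Agent.P235

/-- the tree of parent pointers -/
def parGraph (n : ℕ) (par : ℕ → ℕ) : SimpleGraph (Fin n) where
  Adj x y := x ≠ y ∧ ((0 < x.val ∧ par x.val = y.val) ∨ (0 < y.val ∧ par y.val = x.val))
  symm := ⟨fun _ _ h => ⟨h.1.symm, h.2.symm⟩⟩
  loopless := ⟨fun _ h => h.1 rfl⟩

theorem parGraph_isTree {n : ℕ} {par : ℕ → ℕ} (hn : 0 < n)
    (h : ∀ v, 0 < v → v < n → par v < v) : (parGraph n par).IsTree := by
  have hr : ∀ (k : ℕ) (hk : k < n), (parGraph n par).Reachable ⟨k, hk⟩ ⟨0, hn⟩ := by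
    intro k
    induction k using Nat.strong_induction_on with
    | _ k ih =>
      intro hk
      rcases Nat.eq_zero_or_pos k with rfl | h0
      · rfl
      · have h1 := h k h0 hk
        refine (SimpleGraph.Adj.reachable ?_).trans (ih (par k) h1 (h1.trans hk))
        exact ⟨fun e => h1.ne' (congrArg Fin.val e), Or.inl ⟨h0, rfl⟩⟩
  haveI : Nonempty (Fin n) := ⟨⟨0, hn⟩⟩
  have hc : (parGraph n par).Connected := ⟨fun x y => (hr x.1 x.2).trans (hr y.1 y.2).symm⟩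
  refine SimpleGraph.isTree_iff_connected_and_card.2
    ⟨hc, le_antisymm ?_ hc.card_vert_le_card_edgeSet_add_one⟩
  obtain ⟨m, rfl⟩ : ∃ m, n = m + 1 := ⟨n - 1, by omega⟩
  have h2 : (parGraph (m + 1) par).edgeSet ⊆ Set.range fun i : Fin m =>
      s(i.succ, (⟨par i.succ, (h _ (Nat.succ_pos _) i.succ.2).trans i.succ.2⟩ : Fin (m + 1))) := by
    intro e he
    induction e using Sym2.ind with
    | _ x y =>
      rcases he.2 with ⟨a1, a2⟩ | ⟨a1, a2⟩
      · obtain ⟨i, rfl⟩ := Fin.exists_succ_eq.2 (Fin.pos_iff_ne_zero.1 a1)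
        exact ⟨i, congrArg (fun z => s(i.succ, z)) (Fin.ext a2)⟩
      · obtain ⟨i, rfl⟩ := Fin.exists_succ_eq.2 (Fin.pos_iff_ne_zero.1 a1)
        exact ⟨i, (congrArg (fun z => s(i.succ, z)) (Fin.ext a2)).trans Sym2.eq_swap⟩
  have h3 := (Nat.card_mono (Set.toFinite _) h2).trans (Finite.card_range_le _)
  rw [Nat.card_fin] at h3 ⊢
  omega

end Vale.Agent.P235
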