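import Mathlib

namespace Vale.Agent.P235

/-- length of a walk for edge lengths `l` -/
def walkLen {V : Type} {G : SimpleGraph V} (l : V → V → ℝ) {x y : V} (p : G.Walk x y) : ℝ :=
  (p.darts.map (fun d => l d.fst d.snd)).sum

/-- shortest-path distance -/
noncomputable def spDist {V : Type} (G : SimpleGraph V) (l : V → V → ℝ) (x y : V) : ℝ :=
  sInf (Set.range (fun p : G.Walk x y => walkLen l p))

/-- `G` has a tree decomposition of width at most `w` -/
def TreewidthLE {V : Type} (G : SimpleGraph V) (w : ℕ) : Prop :=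
  ∃ (T : Type) (_ : Fintype T) (τ : SimpleGraph T) (B : T → Finset V), τ.IsTree ∧
    (∀ u v, G.Adj u v → ∃ t, u ∈ B t ∧ v ∈ B t) ∧
    (∀ v, (τ.induce {t | v ∈ B t}).Connected) ∧ ∀ t, (B t).card ≤ w + 1

end Vale.Agent.P235
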